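import Vale.Agent.Lib.P048.TightFinal

/-- A finite graph on a nonempty vertex set with minimum degree at least `k - 1` and without an
independent set of more than `a` vertices, where `k ≥ 2 * a + 1`, has a cycle of length exactly
`k`. -/
theorem Vale.Agent.Results.P048.MinDegreeCycle.result {V : Type*} [Fintype V] [Nonempty V]
    (G : SimpleGraph V) [DecidableRel G.Adj] (k a : ℕ) (hka : 2 * a + 1 ≤ k)
    (hδ : k ≤ G.minDegree + 1) (hα : ∀ s : Finset V, G.IsIndepSet (s : Set V) → s.card ≤ a) :
    ∃ (v : V) (w : G.Walk v v), w.IsCycle ∧ w.length = k :=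
  Vale.Agent.Lib.P048.min_degree_cycle5 G k a hka hδ hα
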