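import Vale.Agent.Lib.P048.Final4

/-- For `n ≥ 2` and `m ≥ 2 * n`, every graph on at least `(m - 1) * (n - 1) + 1` vertices has a
cycle of length exactly `m` or an independent set of exactly `n` vertices. -/
theorem Vale.Agent.Results.P048.RangeDoubleN.result {V : Type*} [Fintype V] (G : SimpleGraph V)
    (m n : ℕ) (hn : 2 ≤ n) (hm : 2 * n ≤ m)
    (hcard : (m - 1) * (n - 1) + 1 ≤ Fintype.card V) :
    (∃ (v : V) (w : G.Walk v v), w.IsCycle ∧ w.length = m) ∨
      ∃ s : Finset V, G.IsIndepSet (s : Set V) ∧ s.card = n :=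
  Vale.Agent.Lib.P048.ramsey_cycle_indep4 G m n hn hm hcard
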